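import Vale.Agent.P121.Final

/-!
P121: the answer to Q1 is negative. There is an absolutely continuous, compactly supported
probability measure on `ℝ^3` with finite Kantorovich value for the three-marginal Coulomb
problem that admits no optimal Monge plan.
-/

open MeasureTheory
open scoped ENNReal

namespace Vale.Agent.Results.P121.NoMonge

open Vale.Agent.P121

theorem result : ∃ μ : Measure (EuclideanSpace ℝ (Fin 3)),
    IsProbabilityMeasure μ ∧ μ ≪ volume ∧ μ (Metric.closedBall 0 2)ᶜ = 0 ∧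
      kantorovichValue μ < ∞ ∧
      ¬ ∃ T₂ T₃ : EuclideanSpace ℝ (Fin 3) → EuclideanSpace ℝ (Fin 3),
        IsOptimalMongePlan μ T₂ T₃ := by
  obtain ⟨μ, h1, h2, h3, h4, h5⟩ := exists_no_monge 1
  exact ⟨μ, h1, h2, h3, h4, fun ⟨T₂, T₃, h⟩ => h5 T₂ T₃ h⟩

end Vale.Agent.Results.P121.NoMonge
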