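import Vale.Agent.P121.Bounded

/-!
P121, all dimensions `d ≥ 2`: there is a compactly supported probability measure with bounded
density on `ℝ^d` and finite Kantorovich value for the three-marginal Coulomb problem that admits
no optimal Monge plan.
-/

open MeasureTheory
open scoped ENNReal NNReal

namespace Vale.Agent.Results.P121.NoMongeAllDim

open Vale.Agent.P121

theorem result (d : ℕ) (hd : 2 ≤ d) : ∃ μ : Measure (EuclideanSpace ℝ (Fin d)),
    IsProbabilityMeasure μ ∧ (∃ C : ℝ≥0, μ ≤ C • volume) ∧ μ (Metric.closedBall 0 2)ᶜ = 0 ∧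
      kantorovichValue μ < ∞ ∧
      ¬ ∃ T₂ T₃ : EuclideanSpace ℝ (Fin d) → EuclideanSpace ℝ (Fin d),
        IsOptimalMongePlan μ T₂ T₃ := by
  obtain ⟨n, rfl⟩ : ∃ n, d = n + 2 := ⟨d - 2, by omega⟩
  obtain ⟨μ, h1, h2, h3, h4, h5⟩ := exists_no_monge_bdd n
  exact ⟨μ, h1, h2, h3, h4, fun ⟨T₂, T₃, h⟩ => h5 T₂ T₃ h⟩

end Vale.Agent.Results.P121.NoMongeAllDim
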